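import Vale.Agent.P181.H303.Spec

/-! P181: extraction of the coefficient (row RES1 of 303), second copy. -/

set_option autoImplicit false

namespace Vale.Agent.P181.H423

open Finset Vale.Agent.P181.H303

theorem rowRES1 : RowRES1 := by
  classical
  intro A _ _ a q F L hL f hf s
  -- counting function of K
  let cnt : (Fin a → Fin q → Fin a) → (Fin a →₀ ℕ) := fun K =>
    Finsupp.equivFunOnFinite.symm fun c =>
      (univ.filter (fun p : Fin a × Fin q => K p.1 p.2 = c)).card
  let v : (Fin a → Fin q → Fin a) → ℂ := fun K => F (fun r => ∏ l, f (K r l))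
  let P : MvPolynomial (Fin a) ℂ := ∑ K : Fin a → Fin q → Fin a, MvPolynomial.monomial (cnt K) (v K)
  have hP : P = 0 := by
    apply MvPolynomial.funext
    intro t
    rw [map_zero]
    have h1 : F (fun _ : Fin a => (∑ c, t c • f c) ^ q) = 0 :=
      hL _ (L.sum_mem fun c _ => L.smul_mem _ (hf c))
    have h2 : ∀ r : Fin a, (∑ c, t c • f c) ^ q = ∑ k : Fin q → Fin a, ∏ l, (t (k l) • f (k l)) := by
      intro r
      have := Finset.prod_univ_sum (fun _ : Fin q => (univ : Finset (Fin a)))
        (fun (_ : Fin q) (c : Fin a) => t c • f c)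
      simp only [Finset.prod_const, Finset.card_univ, Fintype.card_fin, Fintype.piFinset_univ] at this
      exact this
    have h3 : F (fun r : Fin a => (∑ c, t c • f c) ^ q) =
        ∑ K : Fin a → Fin q → Fin a, (∏ r, ∏ l, t (K r l)) * v K := by
      have e1 : (fun r : Fin a => (∑ c, t c • f c) ^ q) =
          fun r : Fin a => ∑ k : Fin q → Fin a, ∏ l, (t (k l) • f (k l)) := by
        funext r; exact h2 r
      rw [e1, MultilinearMap.map_sum]
      apply Finset.sum_congr rfl
      intro K _
      have e2 : (fun r : Fin a => ∏ l, (t (K r l) • f (K r l))) =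
          fun r : Fin a => (∏ l, t (K r l)) • (∏ l, f (K r l)) := by
        funext r
        simp only [Algebra.smul_def, Finset.prod_mul_distrib, map_prod]
      rw [e2, MultilinearMap.map_smul_univ]
      rfl
    rw [h3] at h1
    rw [show P = ∑ K : Fin a → Fin q → Fin a, MvPolynomial.monomial (cnt K) (v K) from rfl, map_sum,
      ← h1]
    apply Finset.sum_congr rfl
    intro K _
    rw [MvPolynomial.eval_monomial, mul_comm]
    congr 1
    rw [Finsupp.prod_fintype _ _ (fun i => by simp)]
    have h4 : ∏ r, ∏ l, t (K r l) = ∏ p : Fin a × Fin q, t (K p.1 p.2) := by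
      rw [Fintype.prod_prod_type]
    rw [h4, ← Finset.prod_fiberwise (univ : Finset (Fin a × Fin q)) (fun p => K p.1 p.2)]
    apply Finset.prod_congr rfl
    intro c _
    rw [Finset.prod_congr rfl (g := fun _ => t c) (by
      intro p hp
      rw [(Finset.mem_filter.1 hp).2]), Finset.prod_const]
    rfl
  have hc : P.coeff (Finsupp.equivFunOnFinite.symm s) = 0 := by rw [hP]; simp
  rw [show P = ∑ K : Fin a → Fin q → Fin a, MvPolynomial.monomial (cnt K) (v K) from rfl,
    MvPolynomial.coeff_sum] at hc
  simp only [MvPolynomial.coeff_monomial] at hc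
  rw [← Finset.sum_filter] at hc
  rw [← hc]
  apply Finset.sum_congr
  · ext K
    simp only [Finset.mem_filter, Finset.mem_univ, true_and]
    constructor
    · intro h
      show Finsupp.equivFunOnFinite.symm _ = _
      congr 1
      funext c
      exact h c
    · intro h c
      have := congrArg (fun g : Fin a →₀ ℕ => g c) h
      exact this
  · intro K _
    rfl

end Vale.Agent.P181.H423
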